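import Vale.Agent.P121.Main

open MeasureTheory
open scoped ENNReal

namespace Vale.Agent.Results.P121.NoOptimalMongePlan

/-- The three-particle Coulomb cost `1/|x₁-x₂| + 1/|x₁-x₃| + 1/|x₂-x₃|`, with values in `[0, ∞]`.
As `edist x x = 0` and `0⁻¹ = ∞` in `ℝ≥0∞`, it is `∞` when two coordinates coincide. -/
noncomputable def coulombCost {X : Type} [EDist X] (x₁ x₂ x₃ : X) : ℝ≥0∞ :=
  (edist x₁ x₂)⁻¹ + (edist x₁ x₃)⁻¹ + (edist x₂ x₃)⁻¹

/-- The probability measures on the triple product all of whose three marginals equal `μ`. -/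
def couplings {X : Type} [MeasurableSpace X] (μ : Measure X) : Set (Measure (X × X × X)) :=
  {π | IsProbabilityMeasure π ∧ π.map (fun p => p.1) = μ ∧ π.map (fun p => p.2.1) = μ ∧
    π.map (fun p => p.2.2) = μ}

/-- The Kantorovich value: infimum of the total Coulomb cost over all couplings. -/
noncomputable def kantorovichValue {X : Type} [MeasurableSpace X] [EDist X] (μ : Measure X) :
    ℝ≥0∞ :=
  ⨅ π ∈ couplings μ, ∫⁻ p, coulombCost p.1 p.2.1 p.2.2 ∂π

/-- `μ` admits an optimal Monge plan: Borel maps `T₂`, `T₃` pushing `μ` forward to `μ` such that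
the cost of the plan `(id, T₂, T₃)` equals the Kantorovich value. -/
def HasOptimalMongePlan {X : Type} [MeasurableSpace X] [EDist X] (μ : Measure X) : Prop :=
  ∃ T₂ T₃ : X → X, Measurable T₂ ∧ Measurable T₃ ∧ μ.map T₂ = μ ∧ μ.map T₃ = μ ∧
    ∫⁻ x, coulombCost x (T₂ x) (T₃ x) ∂μ = kantorovichValue μ

lemma kantorovichValue_eq (μ : Measure (EuclideanSpace ℝ (Fin 3))) :
    kantorovichValue μ = Vale.Agent.P121.kant Vale.Agent.P121.coul μ := by
  unfold kantorovichValue Vale.Agent.P121.kant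
  refine iInf_congr (fun π => ?_)
  refine iInf_congr_Prop ?_ (fun _ => rfl)
  constructor
  · rintro ⟨h0, h1, h2, h3⟩
    exact ⟨h0, h1, h2, h3⟩
  · rintro ⟨h0, h1, h2, h3⟩
    exact ⟨h0, h1, h2, h3⟩

/-- There is an absolutely continuous Borel probability measure on three-space with finite
three-marginal Coulomb Kantorovich value which admits no optimal Monge plan. -/
theorem result : ∃ μ : Measure (EuclideanSpace ℝ (Fin 3)), IsProbabilityMeasure μ ∧
    μ ≪ volume ∧ kantorovichValue μ < ∞ ∧ ¬ HasOptimalMongePlan μ := by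
  obtain ⟨μ, h1, h2, h3, h4⟩ := Vale.Agent.P121.main
  refine ⟨μ, h1, h2, ?_, ?_⟩
  · rw [kantorovichValue_eq]
    exact h3
  · rintro ⟨T2, T3, m2, m3, p2, p3, hopt⟩
    refine h4 T2 T3 m2 m3 p2 p3 ?_
    rw [kantorovichValue_eq] at hopt
    exact hopt

end Vale.Agent.Results.P121.NoOptimalMongePlan
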